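import Mathlib
import Vale.Agent.Lib.P243.Defs
import Vale.Agent.Lib.P243.Counter.Model

/-!
# P243, Q1 (Bang's half-area question, `A_min` form) is false: frozen model data

The body is the regular tetrahedron `Reg = conv{(1,1,1),(1,-1,-1),(-1,1,-1),(-1,-1,1)}`.
Besides the cube coordinates `(X, Y, Z) = (y 0, y 1, y 2)` we use `x = X`, `p = (Y + Z) / 2`,
`q = (Y - Z) / 2`, so that `Reg = {|p| ≤ (1 + x) / 2, |q| ≤ (1 - x) / 2}`.

The covering consists of `2 * 10000` thin cylinders.  With `h = 1/10000`, `th i = -1/2 + i h`,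
`tm j = th j + h / 2`, the upper cylinder `j` has axis `(ξ, 1, η)` in `(x, p, q)`,
`ξ = tm j / 2`, `η = -((tm j)^2 / 2 + (1 - h^2) / 8) / 2`, and consists of the points with
`0 ≤ s ≤ a_j`, `th j * s ≤ q - p η ≤ th (j+1) * s`, where `s = 1 - (x - p ξ)`.
The lower cylinders are the images under the symmetry `(x, p, q) ↦ (-x, q, -p)` of `Reg`.
-/

open scoped RealInnerProductSpace

namespace Vale.Agent.Lib.P243.Weak

open Vale.Agent.Lib.P243 Vale.Agent.Lib.P243.Counter

/-- The regular tetrahedron with vertices `(1,1,1), (1,-1,-1), (-1,1,-1), (-1,-1,1)`. -/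
def Reg : Set E3 := {y | |y 1 + y 2| ≤ 1 + y 0 ∧ |y 1 - y 2| ≤ 1 - y 0}

/-- Number of cylinders in each of the two fans. -/
def M : ℕ := 10000

/-- Mesh size. -/
noncomputable def hh : ℝ := 1 / 10000

/-- Cell boundaries. -/
noncomputable def th (i : ℕ) : ℝ := -1 / 2 + i * hh

/-- Cell midpoints. -/
noncomputable def tm (j : ℕ) : ℝ := -1 / 2 + (j + 1 / 2) * hh

/-- First tilt of the axis as a function of the cell midpoint. -/
noncomputable def xif (t : ℝ) : ℝ := t / 2

/-- Second tilt of the axis as a function of the cell midpoint. -/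
noncomputable def etaf (t : ℝ) : ℝ := -(t ^ 2 / 2 + (1 - hh ^ 2) / 8) / 2

/-- Length of the thin triangle as a function of the cell midpoint. -/
noncomputable def af (t : ℝ) : ℝ := 1 + hh / 5 + t ^ 2 / 32 + 16 / 125 * t ^ 4

/-- Quadratic majorant (in `t ^ 2`) of `af t ^ 2 / sqrt (1 + xif t ^ 2 / 2 + etaf t ^ 2)`. -/
noncomputable def Gf (t : ℝ) : ℝ := 99811 / 100000 - 152 / 10000 * t ^ 2 + 2281 / 10000 * t ^ 4

/-- The thin planar triangle with vertices `(0, 1), (θ a, 1 - a), (θ' a, 1 - a)`. -/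
def Del (a θ θ' : ℝ) : Set (ℝ × ℝ) :=
  {z | z.2 ∈ Set.Icc (1 - a) 1 ∧ θ * (1 - z.2) ≤ z.1 ∧ z.1 ≤ θ' * (1 - z.2)}

/-- Axis of an upper cylinder. -/
noncomputable def axU (ξ η : ℝ) : E3 := !₂[ξ, 1 + η, 1 - η]

/-- The functional `y ↦ q - p η`. -/
noncomputable def qU (η : ℝ) : E3 := !₂[0, (1 - η) / 2, -(1 + η) / 2]

/-- The functional `y ↦ x - p ξ`. -/
noncomputable def xU (ξ : ℝ) : E3 := !₂[1, -ξ / 2, -ξ / 2]

/-- Axis of a lower cylinder. -/
noncomputable def axL (ξ η : ℝ) : E3 := !₂[-ξ, η - 1, η + 1]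

/-- The functional `y ↦ p + q η`. -/
noncomputable def qL (η : ℝ) : E3 := !₂[0, (1 + η) / 2, (1 - η) / 2]

/-- The functional `y ↦ -x + q ξ`. -/
noncomputable def xL (ξ : ℝ) : E3 := !₂[-1, ξ / 2, -ξ / 2]

/-- Cell index of the `i`-th cylinder. -/
def idx (i : ℕ) : ℕ := if i < M then i else i - M

/-- Axis vectors (not normalised). -/
noncomputable def cW (i : ℕ) : E3 :=
  if i < M then axU (xif (tm (idx i))) (etaf (tm (idx i)))
  else axL (xif (tm (idx i))) (etaf (tm (idx i)))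

/-- First chart functionals. -/
noncomputable def cA (i : ℕ) : E3 :=
  if i < M then qU (etaf (tm (idx i))) else qL (etaf (tm (idx i)))

/-- Second chart functionals. -/
noncomputable def cC (i : ℕ) : E3 :=
  if i < M then xU (xif (tm (idx i))) else xL (xif (tm (idx i)))

/-- Unit axis vectors. -/
noncomputable def uu (i : Fin (M + M)) : E3 := ‖cW i‖⁻¹ • cW i

/-- The bases. -/
noncomputable def BB (i : Fin (M + M)) : Set E3 :=
  baseOf (cA i) (cC i) (uu i) (Del (af (tm (idx i))) (th (idx i)) (th (idx i + 1)))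

/-- The determinant of three vectors. -/
def det3 (u a b : E3) : ℝ :=
  u 0 * (a 1 * b 2 - a 2 * b 1) - u 1 * (a 0 * b 2 - a 2 * b 0) + u 2 * (a 0 * b 1 - a 1 * b 0)

end Vale.Agent.Lib.P243.Weak
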