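import Mathlib
import Vale.Agent.Lib.P243.Weak.Defs

/-!
# Module W7 (IneqOne): the interface inequality

FROZEN statements `factor_pos`, `factor_pos'`, `ineq_one`  (pure real algebra, two variables).

Symbols: `h = hh = 1/10000`, `b = (1 - h^2)/8`, `A = t^2`, `B = r^2`, `βt = A/2 + b`,
`βr = B/2 + b`, so `etaf t = -βt/2`, `etaf r = -βr/2`, `N = 1 + βt βr / 4`,
`κ = xif r + xif t * etaf r = r/2 - t βr / 4`, `κ' = xif t - xif r * etaf t = t/2 + r βt / 4`,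
`C1 = N + t κ = N + t r / 2 - A βr / 4`, `C2 = N - r κ' = N - t r / 2 - B βt / 4`.
Facts: `0 ≤ A, B ≤ 1/4`, `A ≤ 2 b`, `B ≤ 2 b` (hypotheses), `0 < b ≤ 1/8`, `0 ≤ βt, βr ≤ 1/4`.

ROUTE.
(1) `C1, C2 ≥ 55/64` (`N ≥ 1`, `|t r| ≤ 1/4`, `A βr ≤ 1/16`); `|κ|, |κ'| ≤ 9/32`; this gives
    `factor_pos`, `factor_pos'`.
(2) identity (ring): `(1 + A βt/4) C1 + (1 + B βr/4) C2 - 2 N = M0`,
    `M0 = (A-B)^2/8 + t r (A-B) g / 8 + βt βr (A (b - A/2) + B (b - B/2)) / 16`, `g = (A+B)/2 + b`.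
(3) `M0 ≥ -(A B g^2)/32`  (because `((A-B) + t r g / 2)^2 / 8 ≥ 0` and the last term is `≥ 0`);
    `g ≤ 3/8`, `A B ≤ (A^2+B^2)/2`, so `M0 ≥ -(9/4096) (A^2 + B^2)`.
(4) `af t = (1 + A βt / 4) + (3/1000) A^2 + h/5 + A h^2/32`
    (ring; `16/125 = 1/8 + 3/1000`, `b/4 = 1/32 - h^2/32`), hence
    `af t * C1 + af r * C2 - 2 N ≥ M0 + (3/1000)(55/64)(A^2+B^2) + (h/5)(55/32)`, and
    `(3/1000)(55/64) = 0.002578 ≥ 9/4096 = 0.002197`.
(5) `af ≤ 1.02`, so `(h/2)(af t |κ| + af r |κ'|) ≤ (h/2) * 2 * 1.02 * 9/32 = 0.287 h ≤ (h/5)(55/32)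
    = 0.34375 h`.
-/

namespace Vale.Agent.Lib.P243.Weak

namespace IneqOne

lemma hh_pos : 0 < hh := by unfold hh; norm_num

lemma hh_le : hh ≤ 1 / 10000 := by unfold hh; norm_num

lemma sq_le_quarter {t : ℝ} (ht : |t| ≤ 1 / 2) : t ^ 2 ≤ 1 / 4 := by
  have h := abs_le.1 ht
  nlinarith [h.1, h.2]

lemma etaf_nonpos (t : ℝ) : etaf t ≤ 0 := by
  unfold etaf
  have : hh ^ 2 ≤ 1 := by nlinarith [hh_pos, hh_le]
  have := sq_nonneg t
  linarith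

lemma etaf_ge {t : ℝ} (ht : |t| ≤ 1 / 2) : -(1 / 8) ≤ etaf t := by
  unfold etaf
  have := sq_le_quarter ht
  have := sq_nonneg hh
  linarith

lemma abs_etaf_le {t : ℝ} (ht : |t| ≤ 1 / 2) : |etaf t| ≤ 1 / 8 :=
  abs_le.2 ⟨etaf_ge ht, (etaf_nonpos t).trans (by norm_num)⟩

lemma abs_xif_le {t : ℝ} (ht : |t| ≤ 1 / 2) : |xif t| ≤ 1 / 4 := by
  unfold xif
  rw [abs_div, abs_two]
  linarith

lemma one_le_af (t : ℝ) : 1 ≤ af t := by
  unfold af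
  have := hh_pos
  have : 0 ≤ t ^ 2 / 32 := by positivity
  have : 0 ≤ 16 / 125 * t ^ 4 := by positivity
  linarith

lemma af_le {t : ℝ} (ht : |t| ≤ 1 / 2) : af t ≤ 51 / 50 := by
  unfold af
  have hA1 := sq_le_quarter ht
  have hA0 := sq_nonneg t
  have e : t ^ 4 = t ^ 2 * t ^ 2 := by ring
  have e1 : t ^ 2 * t ^ 2 ≤ 1 / 4 * (1 / 4) := mul_le_mul hA1 hA1 hA0 (by norm_num)
  have := hh_le
  rw [e]
  linarith

lemma abs_kappa_le {t r : ℝ} (ht : |t| ≤ 1 / 2) (hr : |r| ≤ 1 / 2) :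
    |xif r + xif t * etaf r| ≤ 9 / 32 := by
  have e1 : |xif t * etaf r| ≤ 1 / 4 * (1 / 8) := by
    rw [abs_mul]
    exact mul_le_mul (abs_xif_le ht) (abs_etaf_le hr) (abs_nonneg _) (by norm_num)
  have := abs_add_le (xif r) (xif t * etaf r)
  have := abs_xif_le hr
  linarith

lemma abs_kappa'_le {t r : ℝ} (ht : |t| ≤ 1 / 2) (hr : |r| ≤ 1 / 2) :
    |xif t - xif r * etaf t| ≤ 9 / 32 := by
  have e1 : |xif r * etaf t| ≤ 1 / 4 * (1 / 8) := by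
    rw [abs_mul]
    exact mul_le_mul (abs_xif_le hr) (abs_etaf_le ht) (abs_nonneg _) (by norm_num)
  have := abs_sub (xif t) (xif r * etaf t)
  have := abs_xif_le ht
  linarith

lemma abs_mul_le_quarter {t r : ℝ} (ht : |t| ≤ 1 / 2) (hr : |r| ≤ 1 / 2) : |t * r| ≤ 1 / 4 := by
  rw [abs_mul]
  have := mul_le_mul ht hr (abs_nonneg _) (by norm_num)
  linarith

/-- `C1 ≥ 55/64`. -/
lemma C1_ge {t r : ℝ} (ht : |t| ≤ 1 / 2) (hr : |r| ≤ 1 / 2) :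
    55 / 64 ≤ 1 + etaf t * etaf r + t * (xif r + xif t * etaf r) := by
  have h1 : 0 ≤ etaf t * etaf r := mul_nonneg_of_nonpos_of_nonpos (etaf_nonpos t) (etaf_nonpos r)
  have h2 := (abs_le.1 (abs_mul_le_quarter ht hr)).1
  have h3 : t ^ 2 * (-etaf r) ≤ 1 / 4 * (1 / 8) :=
    mul_le_mul (sq_le_quarter ht) (by linarith [etaf_ge hr]) (by linarith [etaf_nonpos r])
      (by norm_num)
  have e : t * (xif r + xif t * etaf r) = t * r / 2 - t ^ 2 * (-etaf r) / 2 := by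
    unfold xif; ring
  rw [e]
  linarith

/-- `C2 ≥ 55/64`. -/
lemma C2_ge {t r : ℝ} (ht : |t| ≤ 1 / 2) (hr : |r| ≤ 1 / 2) :
    55 / 64 ≤ 1 + etaf t * etaf r - r * (xif t - xif r * etaf t) := by
  have h1 : 0 ≤ etaf t * etaf r := mul_nonneg_of_nonpos_of_nonpos (etaf_nonpos t) (etaf_nonpos r)
  have h2 := (abs_le.1 (abs_mul_le_quarter ht hr)).2
  have h3 : r ^ 2 * (-etaf t) ≤ 1 / 4 * (1 / 8) :=
    mul_le_mul (sq_le_quarter hr) (by linarith [etaf_ge ht]) (by linarith [etaf_nonpos t])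
      (by norm_num)
  have e : r * (xif t - xif r * etaf t) = t * r / 2 + r ^ 2 * (-etaf t) / 2 := by
    unfold xif; ring
  rw [e]
  linarith

end IneqOne

open IneqOne

theorem factor_pos {t r : ℝ} (ht : |t| ≤ 1 / 2) (hr : |r| ≤ 1 / 2) :
    0 < 1 + etaf t * etaf r + t * (xif r + xif t * etaf r)
      - hh / 2 * |xif r + xif t * etaf r| := by
  have h1 := C1_ge ht hr
  have h2 : hh / 2 * |xif r + xif t * etaf r| ≤ 1 / 20000 * (9 / 32) :=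
    mul_le_mul (by linarith [hh_le]) (abs_kappa_le ht hr) (abs_nonneg _) (by norm_num)
  linarith

theorem factor_pos' {t r : ℝ} (ht : |t| ≤ 1 / 2) (hr : |r| ≤ 1 / 2) :
    0 < 1 + etaf t * etaf r - r * (xif t - xif r * etaf t)
      - hh / 2 * |xif t - xif r * etaf t| := by
  have h1 := C2_ge ht hr
  have h2 : hh / 2 * |xif t - xif r * etaf t| ≤ 1 / 20000 * (9 / 32) :=
    mul_le_mul (by linarith [hh_le]) (abs_kappa'_le ht hr) (abs_nonneg _) (by norm_num)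
  linarith

/-- Step (3): the lower bound for `M0`, abstract form. -/
lemma IneqOne.M0_ge {A B P b g : ℝ} (hA0 : 0 ≤ A) (hA1 : A ≤ 1 / 4) (hB0 : 0 ≤ B) (hB1 : B ≤ 1 / 4)
    (hP : P ^ 2 = A * B) (hb0 : 0 ≤ b) (hb1 : b ≤ 1 / 8) (hAb : A ≤ 2 * b) (hBb : B ≤ 2 * b)
    (hg : g = (A + B) / 2 + b) :
    -(9 / 4096) * (A ^ 2 + B ^ 2) ≤ (A - B) ^ 2 / 8 + P * (A - B) * g / 8
      + (A / 2 + b) * (B / 2 + b) * (A * (b - A / 2) + B * (b - B / 2)) / 16 := by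
  have hg0 : 0 ≤ g := by rw [hg]; linarith
  have hg1 : g ≤ 3 / 8 := by rw [hg]; linarith
  have k1 : 0 ≤ ((A - B) + P * g / 2) ^ 2 / 8 := by positivity
  have k1' : ((A - B) + P * g / 2) ^ 2 / 8
      = (A - B) ^ 2 / 8 + P * (A - B) * g / 8 + A * B * g ^ 2 / 32 := by
    rw [← hP]; ring
  have k2 : 0 ≤ (A / 2 + b) * (B / 2 + b) * (A * (b - A / 2) + B * (b - B / 2)) / 16 := by
    have e1 : 0 ≤ A * (b - A / 2) := mul_nonneg hA0 (by linarith)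
    have e2 : 0 ≤ B * (b - B / 2) := mul_nonneg hB0 (by linarith)
    have e3 : 0 ≤ A / 2 + b := by linarith
    have e4 : 0 ≤ B / 2 + b := by linarith
    positivity
  have k3 : g ^ 2 ≤ (3 / 8) ^ 2 := pow_le_pow_left₀ hg0 hg1 2
  have k4 : A * B * g ^ 2 ≤ A * B * (3 / 8) ^ 2 :=
    mul_le_mul_of_nonneg_left k3 (mul_nonneg hA0 hB0)
  have k5 : A * B ≤ (A ^ 2 + B ^ 2) / 2 := by nlinarith [sq_nonneg (A - B)]
  norm_num at k4
  linarith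

theorem ineq_one {t r : ℝ} (ht : |t| ≤ 1 / 2) (hr : |r| ≤ 1 / 2)
    (ht' : t ^ 2 ≤ (1 - hh ^ 2) / 4) (hr' : r ^ 2 ≤ (1 - hh ^ 2) / 4) :
    2 * (1 + etaf t * etaf r) ≤
      af t * (1 + etaf t * etaf r + t * (xif r + xif t * etaf r)
        - hh / 2 * |xif r + xif t * etaf r|) +
      af r * (1 + etaf t * etaf r - r * (xif t - xif r * etaf t)
        - hh / 2 * |xif t - xif r * etaf t|) := by
  have h0 := hh_pos
  have h1 := hh_le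
  have hh2 : 0 ≤ hh ^ 2 := sq_nonneg hh
  have hh21 : hh ^ 2 ≤ 1 := by nlinarith
  have hA0 : 0 ≤ t ^ 2 := sq_nonneg t
  have hB0 : 0 ≤ r ^ 2 := sq_nonneg r
  have hA1 := sq_le_quarter ht
  have hB1 := sq_le_quarter hr
  have m0 := M0_ge (A := t ^ 2) (B := r ^ 2) (P := t * r) (b := (1 - hh ^ 2) / 8)
    hA0 hA1 hB0 hB1 (by ring) (by linarith) (by linarith) (by linarith) (by linarith) rfl
  have c1 := C1_ge ht hr
  have c2 := C2_ge ht hr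
  -- the extra terms of `af`
  have ea : 3 / 1000 * (t ^ 2) ^ 2 + hh / 5 ≤ 3 / 1000 * (t ^ 2) ^ 2 + hh / 5 + t ^ 2 * hh ^ 2 / 32 := by
    have : 0 ≤ t ^ 2 * hh ^ 2 / 32 := by positivity
    linarith
  have eb : 3 / 1000 * (r ^ 2) ^ 2 + hh / 5 ≤ 3 / 1000 * (r ^ 2) ^ 2 + hh / 5 + r ^ 2 * hh ^ 2 / 32 := by
    have : 0 ≤ r ^ 2 * hh ^ 2 / 32 := by positivity
    linarith
  have ea0 : 0 ≤ 3 / 1000 * (t ^ 2) ^ 2 + hh / 5 := by positivity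
  have eb0 : 0 ≤ 3 / 1000 * (r ^ 2) ^ 2 + hh / 5 := by positivity
  have fa : (3 / 1000 * (t ^ 2) ^ 2 + hh / 5) * (55 / 64) ≤
      (3 / 1000 * (t ^ 2) ^ 2 + hh / 5 + t ^ 2 * hh ^ 2 / 32) *
        (1 + etaf t * etaf r + t * (xif r + xif t * etaf r)) :=
    mul_le_mul ea c1 (by norm_num) (ea0.trans ea)
  have fb : (3 / 1000 * (r ^ 2) ^ 2 + hh / 5) * (55 / 64) ≤
      (3 / 1000 * (r ^ 2) ^ 2 + hh / 5 + r ^ 2 * hh ^ 2 / 32) *
        (1 + etaf t * etaf r - r * (xif t - xif r * etaf t)) :=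
    mul_le_mul eb c2 (by norm_num) (eb0.trans eb)
  -- the perturbation
  have pa : af t * |xif r + xif t * etaf r| ≤ 51 / 50 * (9 / 32) :=
    mul_le_mul (af_le ht) (abs_kappa_le ht hr) (abs_nonneg _) (by norm_num)
  have pb : af r * |xif t - xif r * etaf t| ≤ 51 / 50 * (9 / 32) :=
    mul_le_mul (af_le hr) (abs_kappa'_le ht hr) (abs_nonneg _) (by norm_num)
  have pab : hh / 2 * (af t * |xif r + xif t * etaf r| + af r * |xif t - xif r * etaf t|)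
      ≤ hh / 2 * (51 / 50 * (9 / 32) + 51 / 50 * (9 / 32)) :=
    mul_le_mul_of_nonneg_left (by linarith) (by linarith)
  generalize |xif r + xif t * etaf r| = K1 at *
  generalize |xif t - xif r * etaf t| = K2 at *
  have id : af t * (1 + etaf t * etaf r + t * (xif r + xif t * etaf r) - hh / 2 * K1) +
      af r * (1 + etaf t * etaf r - r * (xif t - xif r * etaf t) - hh / 2 * K2)
      - 2 * (1 + etaf t * etaf r)
      = ((t ^ 2 - r ^ 2) ^ 2 / 8 + t * r * (t ^ 2 - r ^ 2) * ((t ^ 2 + r ^ 2) / 2 + (1 - hh ^ 2) / 8) / 8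
          + (t ^ 2 / 2 + (1 - hh ^ 2) / 8) * (r ^ 2 / 2 + (1 - hh ^ 2) / 8) *
            (t ^ 2 * ((1 - hh ^ 2) / 8 - t ^ 2 / 2) + r ^ 2 * ((1 - hh ^ 2) / 8 - r ^ 2 / 2)) / 16)
        + (3 / 1000 * (t ^ 2) ^ 2 + hh / 5 + t ^ 2 * hh ^ 2 / 32) *
            (1 + etaf t * etaf r + t * (xif r + xif t * etaf r))
        + (3 / 1000 * (r ^ 2) ^ 2 + hh / 5 + r ^ 2 * hh ^ 2 / 32) *
            (1 + etaf t * etaf r - r * (xif t - xif r * etaf t))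
        - hh / 2 * (af t * K1 + af r * K2) := by
    simp only [af, etaf, xif]
    ring
  have hA2 : 0 ≤ (t ^ 2) ^ 2 := sq_nonneg _
  have hB2 : 0 ≤ (r ^ 2) ^ 2 := sq_nonneg _
  linarith

end Vale.Agent.Lib.P243.Weak
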