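import Mathlib
import Vale.Agent.Lib.P243.Weak.Defs

/-!
# Module W6a (Wedge): the wedges of one fan tile the tetrahedron (discrete intermediate value)

FROZEN statement `wedge`.

ROUTE.  Put `Gm i = q - th i * (1 - x) - p * ((th i)^2 / 2 - 1/8) / 2`.
Identities (ring, after unfolding `th, tm, xif, etaf`; `tm j = th j + hh/2 = th (j+1) - hh/2`,
push_cast for `((j+1 : ℕ) : ℝ)`):
  `(q - p * etaf (tm j)) - th j * (1 - x + p * xif (tm j)) = Gm j`,
  `(q - p * etaf (tm j)) - th (j+1) * (1 - x + p * xif (tm j)) = Gm (j+1)`.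
`th 0 = -1/2`, `th M = 1/2`, so `Gm 0 = q + (1-x)/2 ≥ 0` and `Gm M = q - (1-x)/2 ≤ 0`.
Discrete IVT: there is `j < M` with `Gm j ≥ 0 ≥ Gm (j+1)` (e.g. `Nat.find` of the first `i` with
`Gm i < 0`..., or induction on `n`: `Gm 0 ≥ 0 → Gm n ≤ 0 → ∃ j < n, Gm j ≥ 0 ∧ Gm (j+1) ≤ 0`;
take care of the case `M`-th value `= 0`).
-/

namespace Vale.Agent.Lib.P243.Weak

/-- Discrete intermediate value theorem. -/
theorem exists_sign_change (m : ℕ) (G : ℕ → ℝ) (hpos : 0 < m) (h0 : 0 ≤ G 0) (hm : G m ≤ 0) :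
    ∃ j < m, 0 ≤ G j ∧ G (j + 1) ≤ 0 := by
  induction m with
  | zero => omega
  | succ n ih =>
    by_cases h : G n ≤ 0
    · rcases Nat.eq_zero_or_pos n with rfl | hn
      · exact ⟨0, by omega, h0, hm⟩
      · obtain ⟨j, hj, h1, h2⟩ := ih hn h
        exact ⟨j, by omega, h1, h2⟩
    · exact ⟨n, by omega, (not_le.1 h).le, hm⟩

theorem wedge {x p q : ℝ} (hq : |q| ≤ (1 - x) / 2) :
    ∃ j < M, th j * (1 - x + p * xif (tm j)) ≤ q - p * etaf (tm j) ∧
      q - p * etaf (tm j) ≤ th (j + 1) * (1 - x + p * xif (tm j)) := by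
  rw [abs_le] at hq
  set Gm : ℕ → ℝ := fun i => q - th i * (1 - x) - p * ((th i) ^ 2 / 2 - 1 / 8) / 2 with hGm
  have e1 : ∀ j : ℕ, (q - p * etaf (tm j)) - th j * (1 - x + p * xif (tm j)) = Gm j := by
    intro j
    simp only [hGm]
    unfold th tm xif etaf
    ring
  have e2 : ∀ j : ℕ, (q - p * etaf (tm j)) - th (j + 1) * (1 - x + p * xif (tm j))
      = Gm (j + 1) := by
    intro j
    simp only [hGm]
    unfold th tm xif etaf
    push_cast
    ring
  have h0 : 0 ≤ Gm 0 := by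
    simp only [hGm]
    unfold th
    norm_num
    linarith [hq.1]
  have hM : Gm M ≤ 0 := by
    simp only [hGm]
    unfold th M hh
    norm_num
    linarith [hq.2]
  obtain ⟨j, hj, h1, h2⟩ := exists_sign_change M Gm (by unfold M; norm_num) h0 hM
  refine ⟨j, hj, ?_, ?_⟩
  · have := e1 j
    linarith
  · have := e2 j
    linarith

end Vale.Agent.Lib.P243.Weak
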