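import Mathlib
import Vale.Agent.Lib.P243.Weak.Wedge
import Vale.Agent.Lib.P243.Weak.IneqOne

/-!
# Module W6b (CoverReal): the two fans cover the tetrahedron (in the coordinates `x, p, q`)

FROZEN statement `cover_real`.

ROUTE.  `wedge` for `(x, p, q)` gives `j`; `wedge` for `(-x, -q, p)` (hypothesis `|p| ≤ (1+x)/2`)
gives `l`.  Put `t = tm j`, `r = tm l`, `ξ = xif t`, `η = etaf t`, `ξ' = xif r`, `η' = etaf r`,
`s = 1 - x + p ξ`, `q0 = q - p η`, `s' = 1 + x - q ξ'`, `q0' = p + q η'`.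
* `th (j+1) - th j = hh > 0` so `s ≥ 0`, `s' ≥ 0`; `th j = t - hh/2`, `th (j+1) = t + hh/2`, so
  `|q0 - t s| ≤ (hh/2) s`, `|q0' - r s'| ≤ (hh/2) s'`.
* identity (ring): `N (s + s') + q0 κ - q0' κ' = 2 N`, `N = 1 + η η'`, `κ = ξ' + ξ η'`,
  `κ' = ξ - ξ' η`.
* hence `2 N ≥ s (N + t κ - (hh/2)|κ|) + s' (N - r κ' - (hh/2)|κ'|)`
  (`(q0 - t s) κ ≥ -(hh/2) s |κ|` from `abs_mul`, `neg_abs_le`).
* if `s > af t` and `s' > af r`, `factor_pos`, `factor_pos'` and `ineq_one` give `2 N > 2 N`.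
* so `s ≤ af t` (left alternative with `j`) or `s' ≤ af r` (right alternative with `l`).
Bounds on `tm j` for `j < M`: `|tm j| ≤ 1/2 - hh/2`, hence `(tm j)^2 ≤ (1-hh)^2/4 ≤ (1-hh^2)/4`.
Membership in `Del a θ θ'` of `(z1, z2)`: `1 - a ≤ z2 ≤ 1`, `θ (1 - z2) ≤ z1 ≤ θ' (1 - z2)`, with
`1 - z2 = s`.
-/

namespace Vale.Agent.Lib.P243.Weak

lemma th_eq_sub (j : ℕ) : th j = tm j - hh / 2 := by
  unfold th tm
  ring

lemma th_succ_eq_add (j : ℕ) : th (j + 1) = tm j + hh / 2 := by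
  unfold th tm
  push_cast
  ring

lemma hh_pos' : 0 < hh := by unfold hh; norm_num

lemma tm_bounds {j : ℕ} (hj : j < M) : -(1 / 2 - hh / 2) ≤ tm j ∧ tm j ≤ 1 / 2 - hh / 2 := by
  have h1 : (j : ℝ) + 1 ≤ 10000 := by
    have : j + 1 ≤ 10000 := hj
    exact_mod_cast this
  have h0 : (0 : ℝ) ≤ j := Nat.cast_nonneg j
  unfold tm hh
  constructor <;> linarith

lemma abs_tm_le {j : ℕ} (hj : j < M) : |tm j| ≤ 1 / 2 := by
  have h := tm_bounds hj
  have := hh_pos'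
  rw [abs_le]
  constructor <;> linarith [h.1, h.2]

lemma tm_sq_le {j : ℕ} (hj : j < M) : tm j ^ 2 ≤ (1 - hh ^ 2) / 4 := by
  have h := tm_bounds hj
  have h0 := hh_pos'
  have h1 : hh ≤ 1 := by unfold hh; norm_num
  nlinarith [h.1, h.2, mul_nonneg (sub_nonneg.2 h.1) (sub_nonneg.2 h.2), mul_nonneg h0.le
    (sub_nonneg.2 h1)]

/-- `c * d ≥ -(e * |c|)` when `|d| ≤ e`. -/
lemma mul_ge_of_abs_le {c d e : ℝ} (hd : |d| ≤ e) : -(e * |c|) ≤ d * c := by
  have h1 : |d * c| ≤ e * |c| := by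
    rw [abs_mul]
    exact mul_le_mul_of_nonneg_right hd (abs_nonneg c)
  linarith [neg_abs_le (d * c)]

/-- The final contradiction, in abstract form. -/
lemma no_escape {N κ κ' s s' q0 q0' t r h a a' : ℝ}
    (hlo : (t - h / 2) * s ≤ q0) (hhi : q0 ≤ (t + h / 2) * s)
    (hlo' : (r - h / 2) * s' ≤ q0') (hhi' : q0' ≤ (r + h / 2) * s')
    (hid : N * (s + s') + q0 * κ - q0' * κ' = 2 * N)
    (f1 : 0 < N + t * κ - h / 2 * |κ|) (f2 : 0 < N - r * κ' - h / 2 * |κ'|)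
    (f3 : 2 * N ≤ a * (N + t * κ - h / 2 * |κ|) + a' * (N - r * κ' - h / 2 * |κ'|))
    (hA : a < s) (hB : a' < s') : False := by
  have d1 : |q0 - t * s| ≤ h / 2 * s := by
    rw [abs_le]
    constructor <;> linarith
  have d2 : |q0' - r * s'| ≤ h / 2 * s' := by
    rw [abs_le]
    constructor <;> linarith
  have g1 := mul_ge_of_abs_le (c := κ) d1
  have g2 := mul_ge_of_abs_le (c := -κ') d2
  rw [abs_neg] at g2
  have k1 : a * (N + t * κ - h / 2 * |κ|) < s * (N + t * κ - h / 2 * |κ|) :=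
    mul_lt_mul_of_pos_right hA f1
  have k2 : a' * (N - r * κ' - h / 2 * |κ'|) < s' * (N - r * κ' - h / 2 * |κ'|) :=
    mul_lt_mul_of_pos_right hB f2
  have e1 : s * (N + t * κ - h / 2 * |κ|) = N * s + t * s * κ - h / 2 * s * |κ| := by ring
  have e2 : s' * (N - r * κ' - h / 2 * |κ'|) = N * s' - r * s' * κ' - h / 2 * s' * |κ'| := by ring
  have e3 : (q0 - t * s) * κ = q0 * κ - t * s * κ := by ring
  have e4 : (q0' - r * s') * -κ' = -(q0' * κ') + r * s' * κ' := by ring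
  have e5 : N * (s + s') = N * s + N * s' := by ring
  rw [e1] at k1
  rw [e2] at k2
  rw [e3] at g1
  rw [e4] at g2
  rw [e5] at hid
  linarith

theorem cover_real {x p q : ℝ} (hp : |p| ≤ (1 + x) / 2) (hq : |q| ≤ (1 - x) / 2) :
    ∃ j < M,
      (q - p * etaf (tm j), x - p * xif (tm j)) ∈ Del (af (tm j)) (th j) (th (j + 1)) ∨
      (p + q * etaf (tm j), -x + q * xif (tm j)) ∈ Del (af (tm j)) (th j) (th (j + 1)) := by
  obtain ⟨j, hj, hlo, hhi⟩ := wedge (x := x) (p := p) (q := q) hq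
  obtain ⟨l, hl, hlo', hhi'⟩ := wedge (x := -x) (p := -q) (q := p)
    (by rw [sub_neg_eq_add]; exact hp)
  have h0 := hh_pos'
  have e1 : 1 - -x + -q * xif (tm l) = 1 - (-x + q * xif (tm l)) := by ring
  have e2 : p - -q * etaf (tm l) = p + q * etaf (tm l) := by ring
  have e3 : 1 - x + p * xif (tm j) = 1 - (x - p * xif (tm j)) := by ring
  rw [e1, e2] at hlo' hhi'
  rw [e3] at hlo hhi
  have hs0 : 0 ≤ 1 - (x - p * xif (tm j)) := by
    have h1 := hlo.trans hhi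
    rw [th_eq_sub, th_succ_eq_add] at h1
    have h2 : 0 ≤ hh * (1 - (x - p * xif (tm j))) := by linarith
    exact nonneg_of_mul_nonneg_right h2 h0
  have hs0' : 0 ≤ 1 - (-x + q * xif (tm l)) := by
    have h1 := hlo'.trans hhi'
    rw [th_eq_sub, th_succ_eq_add] at h1
    have h2 : 0 ≤ hh * (1 - (-x + q * xif (tm l))) := by linarith
    exact nonneg_of_mul_nonneg_right h2 h0
  by_cases hA : 1 - (x - p * xif (tm j)) ≤ af (tm j)
  · exact ⟨j, hj, Or.inl ⟨⟨by show 1 - af (tm j) ≤ x - p * xif (tm j); linarith,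
      by show x - p * xif (tm j) ≤ 1; linarith⟩, hlo, hhi⟩⟩
  by_cases hB : 1 - (-x + q * xif (tm l)) ≤ af (tm l)
  · exact ⟨l, hl, Or.inr ⟨⟨by show 1 - af (tm l) ≤ -x + q * xif (tm l); linarith,
      by show -x + q * xif (tm l) ≤ 1; linarith⟩, hlo', hhi'⟩⟩
  exfalso
  rw [not_le] at hA hB
  rw [th_eq_sub] at hlo hlo'
  rw [th_succ_eq_add] at hhi hhi'
  exact no_escape hlo hhi hlo' hhi' (by ring)
    (factor_pos (abs_tm_le hj) (abs_tm_le hl)) (factor_pos' (abs_tm_le hj) (abs_tm_le hl))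
    (ineq_one (abs_tm_le hj) (abs_tm_le hl) (tm_sq_le hj) (tm_sq_le hl)) hA hB

end Vale.Agent.Lib.P243.Weak
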