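import Mathlib
import Vale.Agent.Lib.P243.Frame
import Vale.Agent.Lib.P243.MinPos
import Vale.Agent.Lib.P243.Counter.Oblique
import Vale.Agent.Lib.P243.Weak.Defs
import Vale.Agent.Lib.P243.Fan.AbsChart

/-!
# Module W1 (Gram): the explicit area constant of an oblique chart

FROZEN statement `gram_chart`.

ROUTE.  `exists_pair hu` (MinPos.lean) gives an orthonormal pair `n, ν` of `u^⊥`; `exists_frame`
(Frame.lean, with `n := n`, `v := u`, or directly from the pair) gives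
`x = ⟪x,n⟫ n + ⟪x,ν⟫ ν + ⟪x,u⟫ u`.  Put `a1 = ⟪a,n⟫, a2 = ⟪a,ν⟫, c1 = ⟪c,n⟫, c2 = ⟪c,ν⟫`,
`D = a1 c2 - a2 c1`.  As `a, c ⟂ u`: `‖a‖² = a1²+a2²`, `‖c‖² = c1²+c2²`, `⟪a,c⟫ = a1 c1 + a2 c2`, so
`D² = g²`, `|D| = g ≠ 0`.
(1) kernel: `z ⟂ u`, `⟪a,z⟫ = ⟪c,z⟫ = 0` gives `a1 z1 + a2 z2 = 0 = c1 z1 + c2 z2`, `D ≠ 0`, `z = 0`.
(2) `baseOf a c u S = j '' (L ⁻¹' S)` with `j (s,t) = s n + t ν` and
`L (s,t) = (a1 s + a2 t, c1 s + c2 t)`; `area_image` (Frame.lean) gives `area (j '' T) = volume T`;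
`MeasureTheory.Measure.addHaar_preimage_linearMap` gives `volume (L ⁻¹' S) = |det L|⁻¹ volume S`;
for the determinant take `L = Matrix.toLin (Basis.finTwoProd ℝ) (Basis.finTwoProd ℝ) !![a1,a2;c1,c2]`,
`LinearMap.det_toLin`, `Matrix.det_fin_two_of`.
(3) `Counter.chart` (Chart.lean) has ONE constant for bases and shadows; compare it with (2) on the
unit square (`volume = 1`), or show `shadow u K = baseOf a c u (P a c '' K)` with (1).
-/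

open MeasureTheory Measure Set
open scoped ENNReal RealInnerProductSpace

namespace Vale.Agent.Lib.P243.Weak

open Vale.Agent.Lib.P243 Vale.Agent.Lib.P243.Counter

theorem gram_chart {u a c : E3} (hu : ‖u‖ = 1) (ha : ⟪a, u⟫ = 0) (hc : ⟪c, u⟫ = 0) {g : ℝ}
    (hg : 0 < g) (hgram : ‖a‖ ^ 2 * ‖c‖ ^ 2 - ⟪a, c⟫ ^ 2 = g ^ 2) :
    (∀ z : E3, P a c z = 0 → inner ℝ u z = 0 → z = 0) ∧
    (∀ S : Set (ℝ × ℝ), area (baseOf a c u S) = ENNReal.ofReal (1 / g) * volume S) ∧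
    (∀ K : Set E3, area (shadow u K) = ENNReal.ofReal (1 / g) * volume (P a c '' K)) := by
  obtain ⟨h1, h2, h3⟩ := Fan.abs_chart hu ha hc (by rw [hgram]; positivity)
  have hs : √(‖a‖ ^ 2 * ‖c‖ ^ 2 - ⟪a, c⟫ ^ 2) = g := by
    rw [hgram, Real.sqrt_sq hg.le]
  have hinv : ENNReal.ofReal (1 / g) = (ENNReal.ofReal g)⁻¹ := by
    rw [one_div, ENNReal.ofReal_inv_of_pos hg]
  refine ⟨h1, ?_, ?_⟩
  · intro S
    rw [baseOf_eq_base, h2, hs, hinv, ENNReal.div_eq_inv_mul]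
  · intro K
    rw [h3, hs, hinv, ENNReal.div_eq_inv_mul]

end Vale.Agent.Lib.P243.Weak
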