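import Mathlib
import Vale.Agent.Lib.P243.Weak.Defs

/-!
# Module W8 (IneqTwo): the quadratic majorant of the weighted squared length

FROZEN statements `Gf_pos`, `ineq_two`  (one real variable `A = t^2 ∈ [0, 1/4]`).

ROUTE.  With `u = 4 t^2 ∈ [0,1]`, `v = 1 - u`, the polynomial
`Gf t ^ 2 * (1 + xif t ^ 2 / 2 + etaf t ^ 2) - af t ^ 4` has degree 8 in `u` and ALL its Bernstein
coefficients `c_i` (`= ∑ c_i u^i v^(8-i)`) are positive (between `3.5e-5` and `2.4e-3`; computed
exactly with Python fractions, see the board).  So: `have key : ... = ∑ c_i u^i v^(8-i) := by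
unfold ...; ring` and `positivity`.
-/

namespace Vale.Agent.Lib.P243.Weak

theorem Gf_pos (t : ℝ) (ht : |t| ≤ 1 / 2) : 0 < Gf t := by
  have h1 : t ^ 2 ≤ 1 / 4 := by
    have := sq_le_sq' (by linarith [(abs_le.1 ht).1]) (abs_le.1 ht).2
    linarith
  have h2 : 0 ≤ t ^ 4 := by positivity
  unfold Gf
  nlinarith

theorem bern (u v : ℝ) (hu : 0 ≤ u) (hv : 0 ≤ v) :
    0 ≤ (897739536733661666235721 / 25600000000000000000000000000) * u ^ 0 * v ^ 8 +
      (262707508018344407938419 / 800000000000000000000000000) * u ^ 1 * v ^ 7 +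
      (115517553145980946633344727 / 102400000000000000000000000000) * u ^ 2 * v ^ 6 +
      (105381316493514246747032847 / 51200000000000000000000000000) * u ^ 3 * v ^ 5 +
      (763321081112309123788487781 / 327680000000000000000000000000) * u ^ 4 * v ^ 4 +
      (724775014450006971288126841 / 409600000000000000000000000000) * u ^ 5 * v ^ 3 +
      (741579173943656149785888771 / 819200000000000000000000000000) * u ^ 6 * v ^ 2 +
      (114388550282316039409785313 / 409600000000000000000000000000) * u ^ 7 * v ^ 1 +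
      (61374718121409874867763609 / 1638400000000000000000000000000) * u ^ 8 * v ^ 0 := by
  positivity

theorem ineq_two {t : ℝ} (ht : |t| ≤ 1 / 2) :
    af t ^ 4 ≤ Gf t ^ 2 * (1 + xif t ^ 2 / 2 + etaf t ^ 2) := by
  have h1 : t ^ 2 ≤ 1 / 4 := by
    have := sq_le_sq' (by linarith [(abs_le.1 ht).1]) (abs_le.1 ht).2
    linarith
  have hb := bern (4 * t ^ 2) (1 - 4 * t ^ 2) (by positivity) (by linarith)
  have key : Gf t ^ 2 * (1 + xif t ^ 2 / 2 + etaf t ^ 2) - af t ^ 4 =
      (897739536733661666235721 / 25600000000000000000000000000) * (4 * t ^ 2) ^ 0 * (1 - 4 * t ^ 2) ^ 8 +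
      (262707508018344407938419 / 800000000000000000000000000) * (4 * t ^ 2) ^ 1 * (1 - 4 * t ^ 2) ^ 7 +
      (115517553145980946633344727 / 102400000000000000000000000000) * (4 * t ^ 2) ^ 2 * (1 - 4 * t ^ 2) ^ 6 +
      (105381316493514246747032847 / 51200000000000000000000000000) * (4 * t ^ 2) ^ 3 * (1 - 4 * t ^ 2) ^ 5 +
      (763321081112309123788487781 / 327680000000000000000000000000) * (4 * t ^ 2) ^ 4 * (1 - 4 * t ^ 2) ^ 4 +
      (724775014450006971288126841 / 409600000000000000000000000000) * (4 * t ^ 2) ^ 5 * (1 - 4 * t ^ 2) ^ 3 +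
      (741579173943656149785888771 / 819200000000000000000000000000) * (4 * t ^ 2) ^ 6 * (1 - 4 * t ^ 2) ^ 2 +
      (114388550282316039409785313 / 409600000000000000000000000000) * (4 * t ^ 2) ^ 7 * (1 - 4 * t ^ 2) ^ 1 +
      (61374718121409874867763609 / 1638400000000000000000000000000) * (4 * t ^ 2) ^ 8 * (1 - 4 * t ^ 2) ^ 0 := by
    unfold Gf xif etaf af hh
    ring
  linarith

end Vale.Agent.Lib.P243.Weak
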