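import Mathlib
import Vale.Agent.Lib.P243.Weak.Defs
import Vale.Agent.Lib.P243.Counter.Cover
import Vale.Agent.Lib.P243.Fan.OneCyl

/-!
# Module W11 (LinAlg): linear algebra of the charts

FROZEN statements below.  ROUTE: `Counter.inner_vec` for inner products with explicit vectors
(`⟪!₂[a,b,c], p⟫ = a * p 0 + b * p 1 + c * p 2`), `simp [axU, ...]` for the coordinates,
`real_inner_self_eq_norm_sq` (`⟪x,x⟫ = ‖x‖^2`) for the norms, then `ring`.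
-/

open scoped RealInnerProductSpace

namespace Vale.Agent.Lib.P243.Weak

open Vale.Agent.Lib.P243 Vale.Agent.Lib.P243.Counter

theorem axU_ne_zero (ξ η : ℝ) : axU ξ η ≠ 0 :=
  Fan.vec_ne_zero_of (Or.inl (by ring_nf; norm_num))

theorem axL_ne_zero (ξ η : ℝ) : axL ξ η ≠ 0 :=
  Fan.vec_ne_zero_of (Or.inr (by ring_nf; norm_num))

theorem qU_axU (ξ η : ℝ) : ⟪qU η, axU ξ η⟫ = 0 := by
  rw [qU, axU, inner_vec]
  simp
  ring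

theorem xU_axU (ξ η : ℝ) : ⟪xU ξ, axU ξ η⟫ = 0 := by
  rw [xU, axU, inner_vec]
  simp
  ring

theorem qL_axL (ξ η : ℝ) : ⟪qL η, axL ξ η⟫ = 0 := by
  rw [qL, axL, inner_vec]
  simp
  ring

theorem xL_axL (ξ η : ℝ) : ⟪xL ξ, axL ξ η⟫ = 0 := by
  rw [xL, axL, inner_vec]
  simp
  ring

theorem gramU (ξ η : ℝ) :
    ‖qU η‖ ^ 2 * ‖xU ξ‖ ^ 2 - ⟪qU η, xU ξ⟫ ^ 2 = (1 + ξ ^ 2 / 2 + η ^ 2) / 2 := by
  rw [qU, xU, Fan.norm_sq_vec, Fan.norm_sq_vec, inner_vec]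
  simp
  ring

theorem gramL (ξ η : ℝ) :
    ‖qL η‖ ^ 2 * ‖xL ξ‖ ^ 2 - ⟪qL η, xL ξ⟫ ^ 2 = (1 + ξ ^ 2 / 2 + η ^ 2) / 2 := by
  rw [qL, xL, Fan.norm_sq_vec, Fan.norm_sq_vec, inner_vec]
  simp
  ring

theorem P_U (ξ η : ℝ) (y : E3) :
    P (qU η) (xU ξ) y
      = ((y 1 - y 2) / 2 - (y 1 + y 2) / 2 * η, y 0 - (y 1 + y 2) / 2 * ξ) := by
  rw [P_apply, qU, xU, inner_vec, inner_vec, Prod.mk.injEq]
  constructor <;> ring

theorem P_L (ξ η : ℝ) (y : E3) :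
    P (qL η) (xL ξ) y
      = ((y 1 + y 2) / 2 + (y 1 - y 2) / 2 * η, -y 0 + (y 1 - y 2) / 2 * ξ) := by
  rw [P_apply, qL, xL, inner_vec, inner_vec, Prod.mk.injEq]
  constructor <;> ring

end Vale.Agent.Lib.P243.Weak
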