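import Mathlib
import Vale.Agent.Lib.P243.Weak.Defs

/-!
# Module W10 (Body): `Reg` is a convex body

FROZEN statement `isConvexBody_Reg`.  ROUTE: copy `Counter/Body.lean` (`isConvexBody_Tet`), the
inequalities are now `|y 1 + y 2| ≤ 1 + y 0`, `|y 1 - y 2| ≤ 1 - y 0`; bounded: `|y i| ≤ 1`.
-/

namespace Vale.Agent.Lib.P243.Weak

open Vale.Agent.Lib.P243

theorem isConvexBody_Reg : IsConvexBody Reg := by
  have hc : ∀ i : Fin 3, Continuous fun p : E3 => p i := fun i => by fun_prop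
  refine ⟨?_, ?_, ?_⟩
  · intro p hp q hq a b ha hb hab
    obtain ⟨hp1, hp2⟩ := hp
    obtain ⟨hq1, hq2⟩ := hq
    rw [abs_le] at hp1 hp2 hq1 hq2
    have e : ∀ i : Fin 3, (a • p + b • q) i = a * p i + b * q i := fun i => by simp
    refine ⟨?_, ?_⟩
    · rw [e, e, e, abs_le]
      constructor <;> nlinarith [mul_le_mul_of_nonneg_left hp1.1 ha,
        mul_le_mul_of_nonneg_left hp1.2 ha, mul_le_mul_of_nonneg_left hq1.1 hb,
        mul_le_mul_of_nonneg_left hq1.2 hb]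
    · rw [e, e, e, abs_le]
      constructor <;> nlinarith [mul_le_mul_of_nonneg_left hp2.1 ha,
        mul_le_mul_of_nonneg_left hp2.2 ha, mul_le_mul_of_nonneg_left hq2.1 hb,
        mul_le_mul_of_nonneg_left hq2.2 hb]
  · have hclosed : IsClosed Reg := by
      have h1 : IsClosed {p : E3 | |p 1 + p 2| ≤ 1 + p 0} :=
        isClosed_le (((hc 1).add (hc 2)).abs) (continuous_const.add (hc 0))
      have h2 : IsClosed {p : E3 | |p 1 - p 2| ≤ 1 - p 0} :=
        isClosed_le (((hc 1).sub (hc 2)).abs) (continuous_const.sub (hc 0))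
      exact h1.inter h2
    refine (isCompact_closedBall (0 : E3) 3).of_isClosed_subset hclosed ?_
    rintro p ⟨h1, h2⟩
    rw [abs_le] at h1 h2
    rw [mem_closedBall_zero_iff, EuclideanSpace.norm_eq, Real.sqrt_le_left (by norm_num)]
    simp only [Fin.sum_univ_three, Real.norm_eq_abs, sq_abs]
    have b0 : -1 ≤ p 0 ∧ p 0 ≤ 1 := ⟨by linarith [h1.1, h1.2], by linarith [h2.1, h2.2]⟩
    have b1 : -1 ≤ p 1 ∧ p 1 ≤ 1 := ⟨by linarith [h1.1, h2.1], by linarith [h1.2, h2.2]⟩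
    have b2 : -1 ≤ p 2 ∧ p 2 ≤ 1 := ⟨by linarith [h1.1, h2.2], by linarith [h1.2, h2.1]⟩
    nlinarith [b0.1, b0.2, b1.1, b1.2, b2.1, b2.2]
  · have hopen : IsOpen {p : E3 | |p 1 + p 2| < 1 + p 0 ∧ |p 1 - p 2| < 1 - p 0} := by
      have h1 : IsOpen {p : E3 | |p 1 + p 2| < 1 + p 0} :=
        isOpen_lt (((hc 1).add (hc 2)).abs) (continuous_const.add (hc 0))
      have h2 : IsOpen {p : E3 | |p 1 - p 2| < 1 - p 0} :=
        isOpen_lt (((hc 1).sub (hc 2)).abs) (continuous_const.sub (hc 0))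
      exact h1.inter h2
    refine ⟨0, interior_maximal ?_ hopen ?_⟩
    · rintro p ⟨h1, h2⟩
      exact ⟨h1.le, h2.le⟩
    · constructor <;> simp

end Vale.Agent.Lib.P243.Weak
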