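import Mathlib
import Vale.Agent.Lib.P243.Fan.MinShadow
import Vale.Agent.Lib.P243.Weak.Body

/-!
# Module W4 (MinShadow): every shadow of the regular tetrahedron has area at least `2 √2`

FROZEN statement `minShadow_Reg`.  The work is done in `Fan/MinShadow.lean` (projected faces give
`2 (|v 0| + |v 1| + |v 2|)`, pairs of opposite edges give `4 max |v i|`); `Fan.T` and `Reg` are the
same set.
-/

open MeasureTheory Measure Set
open scoped ENNReal RealInnerProductSpace

namespace Vale.Agent.Lib.P243.Weak

open Vale.Agent.Lib.P243

theorem minShadow_Reg : ENNReal.ofReal (2 * Real.sqrt 2) ≤ minShadowArea Reg :=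
  Fan.minShadowArea_T_ge

end Vale.Agent.Lib.P243.Weak
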