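import Mathlib
import Vale.Agent.Lib.P243.Weak.Defs

/-!
# Module W9 (SumBound): the Riemann sum of the majorant

FROZEN statement `sum_Gf_le`.

ROUTE.  `tm j = th j + hh/2`, `th (j+1) = th j + hh`.  Per cell (ring / nlinarith):
  `hh * (tm j)^2 = ((th (j+1))^3 - (th j)^3)/3 - hh^3/12`,
  `hh * (tm j)^4 ≤ ((th (j+1))^5 - (th j)^5)/5`   (difference `= hh^3 (tm j)^2/2 + hh^5/80 ≥ 0`).
Telescoping (`Finset.sum_range_sub`), `th 0 = -1/2`, `th M = 1/2`, `M * hh = 1`:
  `∑ hh * Gf (tm j) ≤ 99811/100000 - (152/10000) (1/12 - hh^2/12) + (2281/10000)/80 = 0.99969458..`.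
-/

namespace Vale.Agent.Lib.P243.Weak

theorem sum_Gf_le : ∑ j ∈ Finset.range M, hh * Gf (tm j) ≤ 9997 / 10000 := by
  -- the telescoping potential
  let Φ : ℕ → ℝ := fun i => (99811 / 100000 + 152 / 10000 * (hh ^ 2 / 12)) * th i
    - 152 / 10000 * ((th i) ^ 3 / 3) + 2281 / 10000 * ((th i) ^ 5 / 5)
  have hh0 : 0 ≤ hh := by unfold hh; norm_num
  have hcell : ∀ j : ℕ, hh * Gf (tm j) ≤ Φ (j + 1) - Φ j := by
    intro j
    have e1 : th (j + 1) = tm j + hh / 2 := by unfold th tm; push_cast; ring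
    have e2 : th j = tm j - hh / 2 := by unfold th tm; ring
    simp only [Φ]
    rw [e1, e2]
    unfold Gf
    have h3 : 0 ≤ hh ^ 3 * (tm j) ^ 2 := by positivity
    have h5 : 0 ≤ hh ^ 5 := by positivity
    nlinarith [h3, h5]
  have hsum : ∑ j ∈ Finset.range M, hh * Gf (tm j) ≤ Φ M - Φ 0 := by
    rw [← Finset.sum_range_sub Φ M]
    exact Finset.sum_le_sum fun j _ => hcell j
  refine hsum.trans ?_
  have t0 : th 0 = -1 / 2 := by unfold th; simp
  have tM : th M = 1 / 2 := by unfold th M hh; norm_num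
  simp only [Φ]
  rw [t0, tM]
  unfold hh
  norm_num

end Vale.Agent.Lib.P243.Weak
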