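import Mathlib
import Vale.Agent.Lib.P243.Weak.Defs
import Vale.Agent.Lib.P243.Counter.AreaQ
import Vale.Agent.Lib.P243.Fan.OneCyl

/-!
# Module W5 (TriArea): the thin triangle `Del a θ θ'` is compact, of area `a^2 (θ' - θ) / 2`

FROZEN statements `isCompact_Del`, `volume_Del_le`.

ROUTE.  `Del a θ θ'` is literally the set of `Counter.volume_strip (1 - a) 1 _ (fun s => θ * (1 - s))
(fun s => θ' * (1 - s))`; `∫ s in (1-a)..1, (θ' - θ) (1 - s) = (θ' - θ) a^2 / 2`.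
Compact: closed (continuous inequalities) and contained in a box
(`|z.1| ≤ (|θ| + |θ'|) * |a|`, `1 - a ≤ z.2 ≤ 1`).
-/

open MeasureTheory Measure Set
open scoped ENNReal

namespace Vale.Agent.Lib.P243.Weak

theorem isCompact_Del (a θ θ' : ℝ) : IsCompact (Del a θ θ') :=
  Fan.isCompact_Wedge θ θ' a

theorem volume_Del_le {a θ θ' : ℝ} (ha : 0 ≤ a) (hθ : θ ≤ θ') :
    volume (Del a θ θ') ≤ ENNReal.ofReal (a ^ 2 * (θ' - θ) / 2) := by
  have h := Fan.volume_Wedge θ θ' a hθ ha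
  have e : Del a θ θ' = Fan.Wedge θ θ' a := rfl
  rw [e, h, mul_comm (θ' - θ)]

end Vale.Agent.Lib.P243.Weak
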