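import Mathlib
import Vale.Agent.Lib.P243.ShadowArea
import Vale.Agent.Lib.P243.Weak.Gram
import Vale.Agent.Lib.P243.Weak.MinShadow
import Vale.Agent.Lib.P243.Weak.TriArea
import Vale.Agent.Lib.P243.Weak.CoverReal
import Vale.Agent.Lib.P243.Weak.IneqTwo
import Vale.Agent.Lib.P243.Weak.SumBound
import Vale.Agent.Lib.P243.Weak.LinAlg

/-!
# P243 weak form: assembly of the fan covering of the regular tetrahedron
-/

open MeasureTheory Measure Set
open scoped ENNReal RealInnerProductSpace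

namespace Vale.Agent.Lib.P243.Weak

open Vale.Agent.Lib.P243 Vale.Agent.Lib.P243.Counter

theorem cW_ne_zero (i : ℕ) : cW i ≠ 0 := by
  unfold cW
  split_ifs
  · exact axU_ne_zero _ _
  · exact axL_ne_zero _ _

theorem cA_cW (i : ℕ) : ⟪cA i, cW i⟫ = 0 := by
  unfold cA cW
  split_ifs
  · exact qU_axU _ _
  · exact qL_axL _ _

theorem cC_cW (i : ℕ) : ⟪cC i, cW i⟫ = 0 := by
  unfold cC cW
  split_ifs
  · exact xU_axU _ _
  · exact xL_axL _ _

/-- `1 + ξ^2/2 + η^2` for the cell midpoint `t`. -/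
noncomputable def zf (t : ℝ) : ℝ := 1 + xif t ^ 2 / 2 + etaf t ^ 2

theorem zf_pos (t : ℝ) : 0 < zf t := by
  unfold zf
  positivity

theorem gram_i (i : ℕ) :
    ‖cA i‖ ^ 2 * ‖cC i‖ ^ 2 - ⟪cA i, cC i⟫ ^ 2 = Real.sqrt (zf (tm (idx i)) / 2) ^ 2 := by
  rw [Real.sq_sqrt (by have := zf_pos (tm (idx i)); positivity)]
  unfold cA cC zf
  split_ifs
  · exact gramU _ _
  · exact gramL _ _

theorem norm_uu (i : Fin (M + M)) : ‖uu i‖ = 1 := norm_unit (cW_ne_zero i)

theorem cA_uu (i : Fin (M + M)) : ⟪cA i, uu i⟫ = 0 := by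
  unfold uu
  rw [inner_smul_right, cA_cW, mul_zero]

theorem cC_uu (i : Fin (M + M)) : ⟪cC i, uu i⟫ = 0 := by
  unfold uu
  rw [inner_smul_right, cC_cW, mul_zero]

theorem sqrt_zf_pos (t : ℝ) : 0 < Real.sqrt (zf t / 2) :=
  Real.sqrt_pos.2 (by have := zf_pos t; positivity)

theorem isCompact_BB (i : Fin (M + M)) : IsCompact (BB i) := by
  have h := (gram_chart (norm_uu i) (cA_uu i) (cC_uu i) (sqrt_zf_pos _) (gram_i i)).1
  unfold BB
  rw [baseOf_eq_base]
  exact isCompact_base (norm_uu i) (P (cA i) (cC i)) h (isCompact_Del _ _ _)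

theorem idx_lt {j : ℕ} (hj : j < M) : idx j = j := by
  unfold idx
  rw [if_pos hj]

theorem idx_add (j : ℕ) : idx (M + j) = j := by
  unfold idx
  rw [if_neg (by omega)]
  omega

theorem isCover : IsCylinderCover Reg uu BB := by
  refine ⟨norm_uu, fun i y hy => hy.1, fun y hy => ?_⟩
  obtain ⟨h1, h2⟩ := hy
  have hp : |(y 1 + y 2) / 2| ≤ (1 + y 0) / 2 := by
    rw [abs_div, abs_of_pos (by norm_num : (0 : ℝ) < 2)]
    linarith
  have hq : |(y 1 - y 2) / 2| ≤ (1 - y 0) / 2 := by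
    rw [abs_div, abs_of_pos (by norm_num : (0 : ℝ) < 2)]
    linarith
  obtain ⟨j, hj, hjc⟩ := cover_real hp hq
  rcases hjc with hU | hL
  · refine mem_iUnion.2 ⟨⟨j, by omega⟩, ?_⟩
    refine subset_cylinder_baseOf (cW_ne_zero j) (cA_cW j) (cC_cW j) _ ?_
    show P (cA j) (cC j) y ∈ Del (af (tm (idx j))) (th (idx j)) (th (idx j + 1))
    unfold cA cC
    rw [if_pos hj, if_pos hj, idx_lt hj, P_U]
    exact hU
  · refine mem_iUnion.2 ⟨⟨M + j, by omega⟩, ?_⟩
    refine subset_cylinder_baseOf (cW_ne_zero (M + j)) (cA_cW (M + j)) (cC_cW (M + j)) _ ?_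
    show P (cA (M + j)) (cC (M + j)) y
      ∈ Del (af (tm (idx (M + j)))) (th (idx (M + j))) (th (idx (M + j) + 1))
    unfold cA cC
    rw [if_neg (by omega), if_neg (by omega), idx_add, P_L]
    exact hL

theorem idx_lt_M {i : ℕ} (hi : i < M + M) : idx i < M := by
  unfold idx
  split_ifs <;> omega

theorem af_nonneg (t : ℝ) : 0 ≤ af t := by
  unfold af hh
  positivity

theorem th_succ (j : ℕ) : th (j + 1) - th j = hh := by
  unfold th
  push_cast
  ring

/-- the real inequality behind the area bound of one base -/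
theorem real_bound {t : ℝ} (ht : |t| ≤ 1 / 2) :
    1 / Real.sqrt (zf t / 2) * (af t ^ 2 * hh / 2) ≤ Real.sqrt 2 * (hh / 2 * Gf t) := by
  have hz := zf_pos t
  have hG := Gf_pos t ht
  have h2 : af t ^ 4 ≤ Gf t ^ 2 * zf t := ineq_two ht
  have hs : Real.sqrt (zf t / 2) = Real.sqrt (zf t) / Real.sqrt 2 := by
    rw [Real.sqrt_div hz.le]
  have hsz : 0 < Real.sqrt (zf t) := Real.sqrt_pos.2 hz
  have hs2 : 0 < Real.sqrt 2 := Real.sqrt_pos.2 (by norm_num)
  have hh0 : (0 : ℝ) < hh := by unfold hh; norm_num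
  have key : af t ^ 2 ≤ Gf t * Real.sqrt (zf t) := by
    have h3 : af t ^ 2 ≤ Real.sqrt (Gf t ^ 2 * zf t) := by
      apply Real.le_sqrt_of_sq_le
      calc (af t ^ 2) ^ 2 = af t ^ 4 := by ring
        _ ≤ _ := h2
    rwa [Real.sqrt_mul (by positivity), Real.sqrt_sq hG.le] at h3
  rw [hs]
  have e : 1 / (Real.sqrt (zf t) / Real.sqrt 2) * (af t ^ 2 * hh / 2)
      = Real.sqrt 2 * (hh / 2 * (af t ^ 2 / Real.sqrt (zf t))) := by
    field_simp
  rw [e]
  have h4 : af t ^ 2 / Real.sqrt (zf t) ≤ Gf t := by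
    rw [div_le_iff₀ hsz]
    exact key
  have h5 : hh / 2 * (af t ^ 2 / Real.sqrt (zf t)) ≤ hh / 2 * Gf t :=
    mul_le_mul_of_nonneg_left h4 (by positivity)
  exact mul_le_mul_of_nonneg_left h5 hs2.le

/-- the bound of the area of the base with index `i` -/
noncomputable def bd (i : ℕ) : ℝ := Real.sqrt 2 * (hh / 2 * Gf (tm (idx i)))

theorem bd_nonneg {i : ℕ} (hi : i < M + M) : 0 ≤ bd i := by
  have hG := Gf_pos _ (abs_tm_le (idx_lt_M hi))
  have hh0 : (0 : ℝ) < hh := by unfold hh; norm_num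
  unfold bd
  positivity

theorem area_BB_le (i : Fin (M + M)) : area (BB i) ≤ ENNReal.ofReal (bd i) := by
  have h := (gram_chart (norm_uu i) (cA_uu i) (cC_uu i) (sqrt_zf_pos _) (gram_i i)).2.1
  have hh0 : (0 : ℝ) < hh := by unfold hh; norm_num
  unfold BB
  rw [h]
  have hv := volume_Del_le (af_nonneg (tm (idx i)))
    (show th (idx i) ≤ th (idx i + 1) by have := th_succ (idx i); linarith)
  rw [th_succ] at hv
  calc ENNReal.ofReal (1 / Real.sqrt (zf (tm (idx i)) / 2))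
        * volume (Del (af (tm (idx i))) (th (idx i)) (th (idx i + 1)))
      ≤ ENNReal.ofReal (1 / Real.sqrt (zf (tm (idx i)) / 2))
        * ENNReal.ofReal (af (tm (idx i)) ^ 2 * hh / 2) := by gcongr
    _ = ENNReal.ofReal (1 / Real.sqrt (zf (tm (idx i)) / 2) * (af (tm (idx i)) ^ 2 * hh / 2)) := by
        rw [ENNReal.ofReal_mul (by have := sqrt_zf_pos (tm (idx i)); positivity)]
    _ ≤ ENNReal.ofReal (bd i) :=
        ENNReal.ofReal_le_ofReal (real_bound (abs_tm_le (idx_lt_M i.2)))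

theorem sum_bd : ∑ i ∈ Finset.range (M + M), bd i ≤ Real.sqrt 2 * (9997 / 10000) := by
  rw [Finset.sum_range_add]
  have e1 : ∑ i ∈ Finset.range M, bd i
      = Real.sqrt 2 / 2 * ∑ j ∈ Finset.range M, hh * Gf (tm j) := by
    rw [Finset.mul_sum]
    refine Finset.sum_congr rfl fun j hj => ?_
    unfold bd
    rw [idx_lt (Finset.mem_range.1 hj)]
    ring
  have e2 : ∑ i ∈ Finset.range M, bd (M + i)
      = Real.sqrt 2 / 2 * ∑ j ∈ Finset.range M, hh * Gf (tm j) := by
    rw [Finset.mul_sum]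
    refine Finset.sum_congr rfl fun j _ => ?_
    unfold bd
    rw [idx_add]
    ring
  rw [e1, e2]
  have hs2 : 0 < Real.sqrt 2 := Real.sqrt_pos.2 (by norm_num)
  nlinarith [sum_Gf_le]

theorem sum_area_le : ∑ i, area (BB i) ≤ ENNReal.ofReal (Real.sqrt 2 * (9997 / 10000)) := by
  calc ∑ i, area (BB i) ≤ ∑ i : Fin (M + M), ENNReal.ofReal (bd i) :=
        Finset.sum_le_sum fun i _ => area_BB_le i
    _ = ∑ i ∈ Finset.range (M + M), ENNReal.ofReal (bd i) :=
        Fin.sum_univ_eq_sum_range (fun i => ENNReal.ofReal (bd i)) (M + M)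
    _ = ENNReal.ofReal (∑ i ∈ Finset.range (M + M), bd i) := by
        rw [ENNReal.ofReal_sum_of_nonneg]
        exact fun i hi => bd_nonneg (Finset.mem_range.1 hi)
    _ ≤ _ := ENNReal.ofReal_le_ofReal sum_bd

/-- The total base area is at most `0.49985` times the smallest shadow area. -/
theorem sum_area_le_min :
    ∑ i, area (BB i) ≤ ENNReal.ofReal (9997 / 20000) * minShadowArea Reg := by
  refine sum_area_le.trans ?_
  calc ENNReal.ofReal (Real.sqrt 2 * (9997 / 10000))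
      = ENNReal.ofReal (9997 / 20000) * ENNReal.ofReal (2 * Real.sqrt 2) := by
        rw [← ENNReal.ofReal_mul (by norm_num)]
        congr 1
        ring
    _ ≤ _ := by gcongr; exact minShadow_Reg

end Vale.Agent.Lib.P243.Weak
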